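import Mathlib
import Vale.Agent.Lib.P134.helper20.Key

/-!
# P134 (De Giorgi conjecture for Allen-Cahn): splitting theorem

Let `u` be an entire `C^2` solution of `Δ u = u^3 - u` on `ℝ^n` (no bound and no
monotonicity assumed).  If `u = φ + ψ` where `φ` is invariant under all translations by
vectors of a subspace `K₁`, `ψ` is invariant under all translations by vectors of a
subspace `K₂`, and `K₁ + K₂ = ℝ^n`, then `φ` is constant or `ψ` is constant.

Example: `u (x', x_n) = F x' + h x_n` (take `K₁` the `x_n`-axis, `K₂` its orthogonal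
complement): then `u` depends on `x'` only or on `x_n` only.
Example: `u x = f (v · x) + g (w · x)` with `v`, `w` linearly independent.
-/

open InnerProductSpace Laplacian

namespace Vale.Agent.Results.P134.A_SplitConstant

theorem result (n : ℕ) (u : EuclideanSpace ℝ (Fin n) → ℝ)
    (hu : ContDiff ℝ 2 u) (heq : ∀ x, Δ u x = u x ^ 3 - u x)
    (K₁ K₂ : Submodule ℝ (EuclideanSpace ℝ (Fin n))) (hK : K₁ ⊔ K₂ = ⊤)
    (φ ψ : EuclideanSpace ℝ (Fin n) → ℝ)
    (hφ : ∀ x, ∀ k ∈ K₁, φ (x + k) = φ x) (hψ : ∀ x, ∀ k ∈ K₂, ψ (x + k) = ψ x)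
    (hsep : ∀ x, u x = φ x + ψ x) :
    (∀ x y, φ x = φ y) ∨ (∀ x y, ψ x = ψ y) :=
  Vale.Agent.Lib.P134.helper20.split_const u hu heq K₁ K₂ hK φ ψ hφ hψ hsep

end Vale.Agent.Results.P134.A_SplitConstant
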