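import Mathlib
import Vale.Agent.Lib.P134.helper20.Key

/-!
# P134 (De Giorgi conjecture for Allen-Cahn): sums of one-dimensional profiles

Let `u` be an entire `C^2` solution of `Δ u = u^3 - u` on `ℝ^n` (no bound and no
monotonicity assumed).  If `u` is a finite sum of one-dimensional profiles in linearly
independent unit directions, `u x = ∑ i, f i (v i · x)`, then `u` is one-dimensional:
`u x = h (v i · x)` for one of the directions `v i`.
-/

open InnerProductSpace Laplacian

namespace Vale.Agent.Results.P134.B_RidgeSum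

/-- a dual family of a linearly independent family -/
private lemma exists_dual {E ι : Type*} [NormedAddCommGroup E] [InnerProductSpace ℝ E]
    [Fintype ι] [DecidableEq ι] (v : ι → E) (hv : LinearIndependent ℝ v) :
    ∃ w : ι → E, ∀ k i, inner ℝ (v k) (w i) = if k = i then 1 else 0 := by
  have hdet : (Matrix.gram ℝ v).det ≠ 0 :=
    Matrix.det_gram_ne_zero_iff_linearIndependent.mpr hv
  refine ⟨fun i => ∑ j, (Matrix.gram ℝ v)⁻¹ j i • v j, fun k i => ?_⟩
  rw [inner_sum]
  simp only [inner_smul_right]
  have h1 := Matrix.mul_nonsing_inv (Matrix.gram ℝ v) (Ne.isUnit hdet)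
  have h2 := congrFun (congrFun h1 k) i
  rw [Matrix.mul_apply, Matrix.one_apply] at h2
  simp only [Matrix.gram_apply] at h2
  rw [← h2]
  exact Finset.sum_congr rfl (fun j _ => mul_comm _ _)

theorem result (n : ℕ) (u : EuclideanSpace ℝ (Fin n) → ℝ)
    (hu : ContDiff ℝ 2 u) (heq : ∀ x, Δ u x = u x ^ 3 - u x)
    {ι : Type} [Fintype ι] [Nonempty ι]
    (v : ι → EuclideanSpace ℝ (Fin n)) (hv : LinearIndependent ℝ v)
    (hv1 : ∀ i, ‖v i‖ = 1)
    (f : ι → ℝ → ℝ) (hsep : ∀ x, u x = ∑ i, f i (inner ℝ (v i) x)) :
    ∃ (i : ι) (h : ℝ → ℝ), ∀ x, u x = h (inner ℝ (v i) x) := by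
  classical
  have _ := hv1
  obtain ⟨w, hw⟩ := exists_dual v hv
  -- effect of a shift along a dual vector
  have shift : ∀ (i : ι) (a : ℝ) (x : EuclideanSpace ℝ (Fin n)),
      u (x + a • w i) = u x + (f i (inner ℝ (v i) x + a) - f i (inner ℝ (v i) x)) := by
    intro i a x
    rw [hsep, hsep]
    have : ∀ k : ι, f k (inner ℝ (v k) (x + a • w i))
        = f k (inner ℝ (v k) x)
          + (if k = i then f i (inner ℝ (v i) x + a) - f i (inner ℝ (v i) x) else 0) := by
      intro k
      rw [inner_add_right, inner_smul_right, hw]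
      by_cases hk : k = i
      · subst hk; simp
      · simp [hk]
    rw [Finset.sum_congr rfl (fun k _ => this k), Finset.sum_add_distrib]
    simp
  -- the key identity
  have key : ∀ (i j : ι), i ≠ j → ∀ (a b : ℝ) (x : EuclideanSpace ℝ (Fin n)),
      (f i (inner ℝ (v i) x + a) - f i (inner ℝ (v i) x))
        * (f j (inner ℝ (v j) x + b) - f j (inner ℝ (v j) x))
        * (2 * u x + (f i (inner ℝ (v i) x + a) - f i (inner ℝ (v i) x))
            + (f j (inner ℝ (v j) x + b) - f j (inner ℝ (v j) x))) = 0 := by
    intro i j hij a b x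
    refine Vale.Agent.Lib.P134.helper20.key u hu heq (a • w i) (b • w j)
      (fun y => f i (inner ℝ (v i) y + a) - f i (inner ℝ (v i) y))
      (fun y => f j (inner ℝ (v j) y + b) - f j (inner ℝ (v j) y))
      (fun y => shift i a y) (fun y => shift j b y) ?_ x
    intro y
    rw [shift j b (y + a • w i), shift i a y]
    have : inner ℝ (v j) (y + a • w i) = inner ℝ (v j) y := by
      rw [inner_add_right, inner_smul_right, hw, if_neg hij.symm]; ring
    rw [this]
  -- each profile is continuous
  have hcont : ∀ i, Continuous (f i) := by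
    intro i
    have h1 : ∀ t : ℝ, f i t
        = u (0 + t • w i) - u 0 + f i 0 := by
      intro t
      have := shift i t 0
      simp only [inner_zero_right, zero_add] at this
      rw [zero_add, this]; ring
    have h2 : f i = fun t : ℝ => u (0 + t • w i) - u 0 + f i 0 := funext h1
    rw [h2]
    exact ((hu.continuous.comp (continuous_const.add
      (continuous_id.smul continuous_const))).sub continuous_const).add continuous_const
  -- at most one profile is nonconstant
  have hone : ∀ i j : ι, i ≠ j → (∃ p p', f i p ≠ f i p') → ∀ q q', f j q = f j q' := by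
    intro i j hij ⟨p, p', hpp⟩ q q'
    by_contra hqq
    obtain ⟨q'', hq''⟩ : (f j q + f j q') / 2 ∈ Set.range (f j) := by
      rcases le_total (f j q) (f j q') with hle | hle
      · exact mem_range_of_exists_le_of_exists_ge (hcont j) ⟨q, by linarith⟩ ⟨q', by linarith⟩
      · exact mem_range_of_exists_le_of_exists_ge (hcont j) ⟨q', by linarith⟩ ⟨q, by linarith⟩
    set x : EuclideanSpace ℝ (Fin n) := p • w i + q • w j with hx
    have hxi : inner ℝ (v i) x = p := by
      rw [hx, inner_add_right, inner_smul_right, inner_smul_right, hw, hw, if_pos rfl,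
        if_neg hij]; ring
    have hxj : inner ℝ (v j) x = q := by
      rw [hx, inner_add_right, inner_smul_right, inner_smul_right, hw, hw, if_pos rfl,
        if_neg hij.symm]; ring
    have k1 := key i j hij (p' - p) (q' - q) x
    have k2 := key i j hij (p' - p) (q'' - q) x
    rw [hxi, hxj] at k1 k2
    have e1 : p + (p' - p) = p' := by ring
    have e2 : q + (q' - q) = q' := by ring
    have e3 : q + (q'' - q) = q'' := by ring
    rw [e1, e2] at k1
    rw [e1, e3, hq''] at k2
    have hA : f i p' - f i p ≠ 0 := fun h => hpp (by linarith)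
    have hB : f j q' - f j q ≠ 0 := fun h => hqq (by linarith)
    have hB2 : (f j q + f j q') / 2 - f j q ≠ 0 := fun h => hqq (by linarith)
    have c1 := (mul_eq_zero.mp k1).resolve_left (mul_ne_zero hA hB)
    have c2 := (mul_eq_zero.mp k2).resolve_left (mul_ne_zero hA hB2)
    exact hqq (by linarith)
  by_cases hex : ∃ i, ∃ p p', f i p ≠ f i p'
  · obtain ⟨i, hi⟩ := hex
    refine ⟨i, fun t => f i t + ∑ k ∈ Finset.univ.erase i, f k 0, fun x => ?_⟩
    rw [hsep, ← Finset.add_sum_erase Finset.univ _ (Finset.mem_univ i)]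
    congr 1
    refine Finset.sum_congr rfl (fun k hk => ?_)
    exact hone i k (Finset.ne_of_mem_erase hk).symm hi _ _
  · push Not at hex
    refine ⟨Classical.arbitrary ι, fun _ => ∑ k, f k 0, fun x => ?_⟩
    rw [hsep]
    exact Finset.sum_congr rfl (fun k _ => hex k _ _)

end Vale.Agent.Results.P134.B_RidgeSum
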