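import Mathlib
import Vale.Agent.Lib.P134.helper20.Key

/-!
# P134 (De Giorgi conjecture for Allen-Cahn): monotone solutions of split form

Let `u` be an entire `C^2` solution of `Δ u = u^3 - u` on `ℝ^n`, `e` a unit vector with
`∂_e u > 0` everywhere, and suppose `u x = F x + h (e · x)` where `F` does not depend on
the `e`-direction (for `e = e_n` this reads `u (x', x_n) = F x' + h x_n`).
Then `u x = h (e · x) + c` for a constant `c`: the solution is one-dimensional.
No bound on `u` is needed and the dimension is arbitrary.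
-/

open InnerProductSpace Laplacian

namespace Vale.Agent.Results.P134.C_MonotoneSplit

theorem result (n : ℕ) (u : EuclideanSpace ℝ (Fin n) → ℝ)
    (hu : ContDiff ℝ 2 u) (heq : ∀ x, Δ u x = u x ^ 3 - u x)
    (e : EuclideanSpace ℝ (Fin n)) (he : ‖e‖ = 1)
    (F : EuclideanSpace ℝ (Fin n) → ℝ) (hF : ∀ x (t : ℝ), F (x + t • e) = F x)
    (h : ℝ → ℝ) (hsep : ∀ x, u x = F x + h (inner ℝ e x))
    (hmono : ∀ x, 0 < fderiv ℝ u x e) :
    ∃ c : ℝ, ∀ x, u x = h (inner ℝ e x) + c := by
  have _ := he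
  have hφ : ∀ x, ∀ k ∈ Submodule.span ℝ {e}, F (x + k) = F x := by
    intro x k hk
    obtain ⟨t, rfl⟩ := Submodule.mem_span_singleton.mp hk
    exact hF x t
  have hψ : ∀ x, ∀ k ∈ (Submodule.span ℝ {e})ᗮ,
      (fun y => h (inner ℝ e y)) (x + k) = (fun y => h (inner ℝ e y)) x := by
    intro x k hk
    have h0 : inner ℝ e k = 0 :=
      Submodule.inner_right_of_mem_orthogonal (Submodule.mem_span_singleton_self e) hk
    simp only [inner_add_right, h0, add_zero]
  have hK : Submodule.span ℝ {e} ⊔ (Submodule.span ℝ {e})ᗮ = ⊤ :=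
    Submodule.sup_orthogonal_of_hasOrthogonalProjection
  rcases Vale.Agent.Lib.P134.helper20.split_const u hu heq _ _ hK F
      (fun y => h (inner ℝ e y)) hφ hψ hsep with hc | hc
  · exact ⟨F 0, fun x => by rw [hsep, hc x 0]; ring⟩
  · exfalso
    have hconst : ∀ t : ℝ, u ((0 : EuclideanSpace ℝ (Fin n)) + t • e) = u 0 := by
      intro t
      rw [hsep, hsep 0, hF 0 t]
      have h2 : h (inner ℝ e ((0 : EuclideanSpace ℝ (Fin n)) + t • e))
          = h (inner ℝ e (0 : EuclideanSpace ℝ (Fin n))) := hc (0 + t • e) 0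
      rw [h2]
    have hd : HasLineDerivAt ℝ u (fderiv ℝ u 0 e) 0 e :=
      ((hu.differentiable (by norm_num) 0).hasFDerivAt).hasLineDerivAt e
    have hd' : HasDerivAt (fun t : ℝ => u ((0 : EuclideanSpace ℝ (Fin n)) + t • e))
        (fderiv ℝ u 0 e) 0 := hd
    have hfun : (fun t : ℝ => u ((0 : EuclideanSpace ℝ (Fin n)) + t • e))
        = fun _ => u 0 := funext hconst
    rw [hfun] at hd'
    have := hd'.unique (hasDerivAt_const (0 : ℝ) (u 0))
    have := hmono 0
    linarith

end Vale.Agent.Results.P134.C_MonotoneSplit
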